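import Vale.Agent.P171.Convert

namespace Vale.Agent.Results.P171.ContinuumTransition

open Vale.Agent.P171 Filter Topology MeasureTheory

/-- There is a radial pair potential on `ℝ³`, Borel measurable and locally bounded on `(0,∞)`,
stable and tempered, and an inverse temperature `β > 0`, such that all partition functions
converge, the pressure `Π(β,z) = lim L⁻³ log ∑_N z^N Z_{L,N}(β)` exists for all `z > 0`, and
`z ↦ Π(β,z)` is not differentiable at some `z₀ > 0`. -/
theorem result :
    ∃ φ : ℝ → ℝ, IsPairPotential φ ∧ IsStable φ ∧ IsTempered φ ∧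
      ∃ β : ℝ, 0 < β ∧ PartitionFunctionsConverge φ β ∧
        ∃ P : ℝ → ℝ, IsPressure φ β P ∧ ∃ z₀ : ℝ, 0 < z₀ ∧ ¬ DifferentiableAt ℝ P z₀ :=
  Vale.Agent.P171.main

end Vale.Agent.Results.P171.ContinuumTransition
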