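import Vale.Agent.P171.Strong

namespace Vale.Agent.Results.P171.TransitionIntegrable

open Vale.Agent.P171 Filter Topology MeasureTheory

/-- There is a radial pair potential on `ℝ³`, Borel measurable, bounded, absolutely integrable
over `ℝ³`, nonpositive beyond distance `2`, stable and tempered, and an inverse temperature
`β > 0`, such that all partition functions converge, the pressure
`Π(β,z) = lim L⁻³ log ∑_N z^N Z_{L,N}(β)` exists for all `z > 0`, and `z ↦ Π(β,z)` is not
differentiable at some `z₀ > 0`. -/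
theorem result :
    ∃ φ : ℝ → ℝ, IsPairPotential φ ∧ IsStable φ ∧ IsTempered φ ∧
      (∃ M : ℝ, ∀ r : ℝ, |φ r| ≤ M) ∧ Integrable (fun x : E3 => φ ‖x‖) ∧
      (∀ r : ℝ, 2 ≤ r → φ r ≤ 0) ∧
      ∃ β : ℝ, 0 < β ∧ PartitionFunctionsConverge φ β ∧
        ∃ P : ℝ → ℝ, IsPressure φ β P ∧ ∃ z₀ : ℝ, 0 < z₀ ∧ ¬ DifferentiableAt ℝ P z₀ :=
  Vale.Agent.P171.mainStrong

end Vale.Agent.Results.P171.TransitionIntegrable
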